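import Vale.Agent.P070.Final

/-! A counterexample to Naimark's problem, with no hypothesis beyond choice. -/

namespace Vale.Agent.Results.P070.Naimark

universe u v w

/-- A representation is irreducible if it is nonzero and the only closed invariant subspaces are
the zero subspace and the whole space. -/
def IsIrreducible {A : Type} [NonUnitalCStarAlgebra A] {H : Type u} [NormedAddCommGroup H]
    [InnerProductSpace ℂ H] [CompleteSpace H] (π : A →⋆ₙₐ[ℂ] (H →L[ℂ] H)) : Prop :=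
  π ≠ 0 ∧ ∀ M : Submodule ℂ H, IsClosed (M : Set H) → (∀ a : A, ∀ x ∈ M, π a x ∈ M) →
    M = ⊥ ∨ M = ⊤

/-- Unitary equivalence: `U π(a) U⋆ = σ(a)` for all `a`, for some unitary `U`. -/
def UnitarilyEquivalent {A : Type} [NonUnitalCStarAlgebra A]
    {H : Type u} [NormedAddCommGroup H] [InnerProductSpace ℂ H] [CompleteSpace H]
    {K : Type v} [NormedAddCommGroup K] [InnerProductSpace ℂ K] [CompleteSpace K]
    (π : A →⋆ₙₐ[ℂ] (H →L[ℂ] H)) (σ : A →⋆ₙₐ[ℂ] (K →L[ℂ] K)) : Prop :=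
  ∃ U : H ≃ₗᵢ[ℂ] K, ∀ (a : A) (y : K), U (π a (U.symm y)) = σ a y

/-- `A` is isomorphic to the algebra of compact operators on `H`: some injective star
homomorphism into the bounded operators has exactly the compact operators as its range. -/
def IsoToCompacts (A : Type) [NonUnitalCStarAlgebra A] (H : Type w) [NormedAddCommGroup H]
    [InnerProductSpace ℂ H] [CompleteSpace H] : Prop :=
  ∃ φ : A →⋆ₙₐ[ℂ] (H →L[ℂ] H), Function.Injective φ ∧
    Set.range φ = {T : H →L[ℂ] H | IsCompactOperator T}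

theorem result :
    ∃ (A : Type) (_ : NonUnitalCStarAlgebra A),
      Nontrivial A ∧
      (∃ (H : Type) (_ : NormedAddCommGroup H) (_ : InnerProductSpace ℂ H) (_ : CompleteSpace H)
        (π : A →⋆ₙₐ[ℂ] (H →L[ℂ] H)), IsIrreducible π) ∧
      (∀ (H : Type u) [NormedAddCommGroup H] [InnerProductSpace ℂ H] [CompleteSpace H]
        (K : Type v) [NormedAddCommGroup K] [InnerProductSpace ℂ K] [CompleteSpace K]
        (π : A →⋆ₙₐ[ℂ] (H →L[ℂ] H)) (σ : A →⋆ₙₐ[ℂ] (K →L[ℂ] K)),
        IsIrreducible π → IsIrreducible σ → UnitarilyEquivalent π σ) ∧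
      ∀ (H : Type w) [NormedAddCommGroup H] [InnerProductSpace ℂ H] [CompleteSpace H],
        ¬ IsoToCompacts A H := by
  obtain ⟨A, iA, hA, hex, huniq, hcpt⟩ := Vale.Agent.P070.counterexample.{u, v, w}
  refine ⟨A, CStarAlgebra.toNonUnitalCStarAlgebra A, hA, hex, ?_, ?_⟩
  · intro H _ _ _ K _ _ _ π σ hπ hσ
    obtain ⟨U, hU⟩ := huniq H K π σ hπ.1 hπ.2 hσ.1 hσ.2
    exact ⟨U, fun a y => by rw [hU, LinearIsometryEquiv.apply_symm_apply]⟩
  · rintro H _ _ _ ⟨φ, hinj, hr⟩
    have h1 : φ 1 ∈ {T : H →L[ℂ] H | IsCompactOperator T} := hr ▸ Set.mem_range_self 1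
    have h2 := hcpt H φ h1
    exact one_ne_zero (hinj (h2.trans (map_zero φ).symm))

end Vale.Agent.Results.P070.Naimark
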